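import Vale.Agent.P245.H68.Multi
import Vale.Agent.P245.H847.Quasi

/-! P245: the threshold + multi-peak log-Sobolev inequality for log-concave linearly
`a`-subgaussian measures, in the format of `H847.lsi_quasi` (helper68) -/

open MeasureTheory
open scoped ContDiff

namespace Vale.Agent.P245.H68

variable {n : ℕ} {μ : Measure (EuclideanSpace ℝ (Fin n))}

/-- for almost every `t > T` the set `{|f| ≥ t}` is a finite union of pairwise disjoint closed
convex sets -/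
theorem lsi_peaks [IsProbabilityMeasure μ] {a C0 P : ℝ} (ha : 0 < a) (hC0 : 0 < C0)
    (hK : H607.KLS C0) (hlc : HasLogConcaveDensity μ) (hsub : LinearlySubgaussian μ a)
    (hP0 : 0 ≤ P)
    (hP : ∀ f : EuclideanSpace ℝ (Fin n) → ℝ, ContDiff ℝ ∞ f → HasCompactSupport f →
      (∫ x, f x ^ 2 ∂μ) - (∫ x, f x ∂μ) ^ 2 ≤ P * ∫ x, ‖gradient f x‖ ^ 2 ∂μ)
    {f : EuclideanSpace ℝ (Fin n) → ℝ} (hf : ContDiff ℝ ∞ f) (hfc : HasCompactSupport f) {T : ℝ}
    (hq : ∀ᵐ t : ℝ, T < t → H368.FinConv {x | t ≤ |f x|}) :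
    Entropy μ (fun x => f x ^ 2) ≤
      (280 * P + 655360 * ((8 * C0 + 26) * a ^ 2)) *
        (1 + Real.log (1 + T ^ 2 / ∫ x, f x ^ 2 ∂μ)) * ∫ x, ‖gradient f x‖ ^ 2 ∂μ := by
  have hlog : 0 < Real.log 2 := Real.log_pos (by norm_num)
  have h := high_union (n := n) QC.H12.med QC.H12.pw (μ := μ)
    (κ := 16 * √((8 * C0 + 26) * a ^ 2))
    (r₀ := 8 * √((8 * C0 + 26) * a ^ 2 * Real.log 2)) (P := P) (by positivity) (by positivity) hP0
    (H847.iso_convex ha hC0 hK hlc hsub) hP hf hfc hq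
  refine h.trans (le_of_eq ?_)
  have e : (16 * √((8 * C0 + 26) * a ^ 2)) ^ 2 = 256 * ((8 * C0 + 26) * a ^ 2) := by
    rw [mul_pow, Real.sq_sqrt (by positivity)]; norm_num
  rw [e]; ring

end Vale.Agent.P245.H68
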