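import Vale.Agent.P245.Defs

/-! P245: from the log-Sobolev inequality for quasi-concave `|f|` to functions whose high level
sets are convex (helper68) -/

open MeasureTheory Set Filter Topology
open scoped ENNReal ContDiff

namespace Vale.Agent.P245.H68

/-- smooth ramp: `0` on `(-∞, 0]`, slope in `[0, 1]`, at least `u - 1` -/
noncomputable def ramp (u : ℝ) : ℝ := ∫ s in (0 : ℝ)..u, Real.smoothTransition s

theorem ramp_hasDeriv (u : ℝ) : HasDerivAt ramp (Real.smoothTransition u) u := by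
  have hc : Continuous Real.smoothTransition := Real.smoothTransition.continuous
  exact intervalIntegral.integral_hasDerivAt_right (hc.intervalIntegrable _ _)
    (hc.stronglyMeasurableAtFilter _ _) hc.continuousAt

theorem ramp_contDiff : ContDiff ℝ ∞ ramp := by
  rw [contDiff_infty_iff_deriv]
  refine ⟨fun u => (ramp_hasDeriv u).differentiableAt, ?_⟩
  have : deriv ramp = Real.smoothTransition := by
    funext u
    exact (ramp_hasDeriv u).deriv
  rw [this]
  exact Real.smoothTransition.contDiff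

theorem ramp_mono : Monotone ramp :=
  monotone_of_deriv_nonneg (fun u => (ramp_hasDeriv u).differentiableAt) fun u => by
    rw [(ramp_hasDeriv u).deriv]
    exact Real.smoothTransition.nonneg _

theorem ramp_zero : ramp 0 = 0 := by simp [ramp]

theorem ramp_of_nonpos {u : ℝ} (hu : u ≤ 0) : ramp u = 0 := by
  unfold ramp
  rw [intervalIntegral.integral_symm]
  have : ∫ s in u..0, Real.smoothTransition s = ∫ s in u..0, (0 : ℝ) := by
    apply intervalIntegral.integral_congr
    intro s hs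
    rw [uIcc_of_le hu] at hs
    exact Real.smoothTransition.zero_of_nonpos hs.2
  rw [this]
  simp

theorem ramp_nonneg (u : ℝ) : 0 ≤ ramp u := by
  rcases le_total u 0 with h | h
  · rw [ramp_of_nonpos h]
  · rw [← ramp_zero]
    exact ramp_mono h

theorem ramp_le {u : ℝ} (hu : 0 ≤ u) : ramp u ≤ u := by
  have hc : Continuous Real.smoothTransition := Real.smoothTransition.continuous
  calc ramp u ≤ ∫ s in (0 : ℝ)..u, (1 : ℝ) := by
        apply intervalIntegral.integral_mono_on hu (hc.intervalIntegrable _ _) (by simp)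
        intro s _
        exact Real.smoothTransition.le_one _
    _ = u := by simp

theorem le_ramp (u : ℝ) : u - 1 ≤ ramp u := by
  rcases le_total u 1 with h | h
  · linarith [ramp_nonneg u]
  · have hc : Continuous Real.smoothTransition := Real.smoothTransition.continuous
    have h1 : ramp u = ramp 1 + ∫ s in (1 : ℝ)..u, Real.smoothTransition s := by
      unfold ramp
      rw [intervalIntegral.integral_add_adjacent_intervals (hc.intervalIntegrable _ _)
        (hc.intervalIntegrable _ _)]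
    have h2 : ∫ s in (1 : ℝ)..u, Real.smoothTransition s = ∫ s in (1 : ℝ)..u, (1 : ℝ) := by
      apply intervalIntegral.integral_congr
      intro s hs
      rw [uIcc_of_le h] at hs
      exact Real.smoothTransition.one_of_one_le hs.1
    rw [h1, h2]
    simp
    exact ramp_nonneg 1

/-- the pointwise inequality: `v` the normalised value, `d` the normalised ramp -/
theorem pointwise {v d R : ℝ} (hv : 0 ≤ v) (hR : 2 ≤ R) (hd0 : 0 ≤ d) (hd1 : d ≤ max (v - R) 0)
    (hd2 : v - 2 * R ≤ d) :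
    v ^ 2 * Real.log (v ^ 2) - v ^ 2 + 1 ≤
      4 * (d ^ 2 * Real.log (d ^ 2)) + (13 + 9 * Real.log R) * (v - 1) ^ 2 := by
  have hlR : 0 ≤ Real.log R := Real.log_nonneg (by linarith)
  have hdv : d ^ 2 ≤ (v - 1) ^ 2 := by
    rcases le_total v R with h | h
    · rw [max_eq_right (by linarith)] at hd1
      have : d = 0 := le_antisymm hd1 hd0
      rw [this]
      nlinarith [sq_nonneg (v - 1)]
    · rw [max_eq_left (by linarith)] at hd1
      have : d ≤ v - 1 := by linarith
      nlinarith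
  by_cases h4 : v ≤ 4 * R
  · -- low part
    have hlow : -(v - 1) ^ 2 ≤ d ^ 2 * Real.log (d ^ 2) := by
      rcases hd0.eq_or_lt with h | h
      · rw [← h]
        simp
        positivity
      · have hvR : R < v := by
          by_contra hcon
          push Not at hcon
          rw [max_eq_right (by linarith)] at hd1
          linarith
        have h1 := Real.one_sub_inv_le_log_of_pos (show 0 < d ^ 2 by positivity)
        have h2 : d ^ 2 * (1 - (d ^ 2)⁻¹) = d ^ 2 - 1 := by
          field_simp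
        have h3 := mul_le_mul_of_nonneg_left h1 (show 0 ≤ d ^ 2 by positivity)
        rw [h2] at h3
        nlinarith
    have hF : v ^ 2 * Real.log (v ^ 2) - v ^ 2 + 1 ≤ 9 * (1 + Real.log R) * (v - 1) ^ 2 := by
      rw [Real.log_pow]
      push_cast
      rcases hv.eq_or_lt with h | h
      · rw [← h]
        simp
        nlinarith
      rcases le_total v 4 with h5 | h5
      · have h6 := Real.log_le_sub_one_of_pos h
        have h7 : v ^ 2 * (2 * Real.log v) ≤ v ^ 2 * (2 * (v - 1)) := by gcongr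
        have h8 : 0 ≤ Real.log R * (v - 1) ^ 2 := by positivity
        nlinarith [sq_nonneg (v - 1), mul_nonneg (sub_nonneg.2 h5) (sq_nonneg (v - 1))]
      · have h6 : Real.log v ≤ Real.log 4 + Real.log R := by
          rw [← Real.log_mul (by norm_num) (by linarith)]
          exact Real.log_le_log h h4
        have h7 : Real.log 4 ≤ 1.4 := by
          rw [show (4 : ℝ) = 2 ^ 2 by norm_num, Real.log_pow]
          push_cast
          linarith [Real.log_two_lt_d9]
        have h8 : v ^ 2 ≤ 2 * (v - 1) ^ 2 := by nlinarith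
        have h9 : 0 ≤ Real.log v := Real.log_nonneg (by linarith)
        have h10 : v ^ 2 * (2 * Real.log v) ≤ 2 * (v - 1) ^ 2 * (2 * Real.log v) := by gcongr
        have h11 : 2 * (v - 1) ^ 2 * (2 * Real.log v) ≤
            2 * (v - 1) ^ 2 * (2 * (1.4 + Real.log R)) := by
          gcongr
          linarith
        have h12 : 0 ≤ Real.log R * (v - 1) ^ 2 := by positivity
        nlinarith [sq_nonneg (v - 1)]
    nlinarith [sq_nonneg (v - 1)]
  · push Not at h4
    have hd : v / 2 ≤ d := by linarith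
    have hdpos : 0 < d := by linarith
    have h1 : v ^ 2 ≤ 4 * d ^ 2 := by nlinarith
    have hv1 : 1 ≤ v ^ 2 := by nlinarith
    have h2 : Real.log (v ^ 2) ≤ Real.log 4 + Real.log (d ^ 2) := by
      rw [← Real.log_mul (by norm_num) (by positivity)]
      exact Real.log_le_log (by positivity) h1
    have h3 : 0 ≤ Real.log (v ^ 2) := Real.log_nonneg hv1
    have h7 : Real.log 4 ≤ 1.4 := by
      rw [show (4 : ℝ) = 2 ^ 2 by norm_num, Real.log_pow]
      push_cast
      linarith [Real.log_two_lt_d9]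
    have h4' : v ^ 2 * Real.log (v ^ 2) ≤ 4 * d ^ 2 * Real.log (v ^ 2) := by gcongr
    have h5 : 4 * d ^ 2 * Real.log (v ^ 2) ≤ 4 * d ^ 2 * (1.4 + Real.log (d ^ 2)) := by
      gcongr
      linarith
    have h6 : 0 ≤ Real.log R * (v - 1) ^ 2 := by positivity
    nlinarith [sq_nonneg (v - 1)]

variable {n : ℕ}

/-- if the level sets of `|f|` above `T ≥ 0` are convex, `f` has one sign where `|f| > T` -/
theorem one_sign {f : EuclideanSpace ℝ (Fin n) → ℝ} (hf : Continuous f) {T : ℝ} (hT : 0 ≤ T)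
    (hconv : ∀ t, T < t → Convex ℝ {x | t ≤ |f x|}) :
    (∀ x, T < |f x| → 0 < f x) ∨ (∀ x, T < |f x| → f x < 0) := by
  by_contra hcon
  push Not at hcon
  obtain ⟨⟨x, hxT, hx⟩, y, hyT, hy⟩ := hcon
  set t := min |f x| |f y| with ht
  have htT : T < t := lt_min hxT hyT
  have hx' : x ∈ {x | t ≤ |f x|} := by
    show t ≤ |f x|
    exact min_le_left _ _
  have hy' : y ∈ {x | t ≤ |f x|} := by
    show t ≤ |f y|
    exact min_le_right _ _
  have h0 := (hconv t htT).isPreconnected.intermediate_value hx' hy' hf.continuousOn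
    (show (0 : ℝ) ∈ Icc (f x) (f y) from ⟨hx, hy⟩)
  obtain ⟨z, hz, hz0⟩ := h0
  have h1 : t ≤ |f z| := hz
  rw [hz0, abs_zero] at h1
  linarith

theorem sq_log_div {u N : ℝ} (hN : 0 < N) :
    N ^ 2 * ((u / N) ^ 2 * Real.log ((u / N) ^ 2)) =
      u ^ 2 * Real.log (u ^ 2) - u ^ 2 * Real.log (N ^ 2) := by
  rcases eq_or_ne u 0 with h | h
  · rw [h]
    simp
  · rw [div_pow, Real.log_div (pow_ne_zero 2 h) (pow_ne_zero 2 hN.ne')]
    field_simp

theorem core {μ : Measure (EuclideanSpace ℝ (Fin n))} [IsProbabilityMeasure μ] {D P : ℝ}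
    (hD : 0 ≤ D)
    (hQC : ∀ g : EuclideanSpace ℝ (Fin n) → ℝ, ContDiff ℝ ∞ g → HasCompactSupport g →
      QuasiconcaveOn ℝ univ (fun x => |g x|) →
      Entropy μ (fun x => g x ^ 2) ≤ D * ∫ x, ‖gradient g x‖ ^ 2 ∂μ)
    (hPo : ∀ g : EuclideanSpace ℝ (Fin n) → ℝ, ContDiff ℝ ∞ g → HasCompactSupport g →
      (∫ x, g x ^ 2 ∂μ) - (∫ x, g x ∂μ) ^ 2 ≤ P * ∫ x, ‖gradient g x‖ ^ 2 ∂μ)
    {f : EuclideanSpace ℝ (Fin n) → ℝ} (hf : ContDiff ℝ ∞ f) (hc : HasCompactSupport f)
    {N T : ℝ} (hN : 0 < N) (hN2 : ∫ x, f x ^ 2 ∂μ = N ^ 2) (hT : 2 * N ≤ T)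
    (hpos : ∀ x, T < |f x| → 0 < f x)
    (hconv : ∀ t, T < t → Convex ℝ {x | t ≤ |f x|}) :
    Entropy μ (fun x => f x ^ 2) ≤
      (4 * D + 2 * P * (13 + 9 * Real.log (T / N))) * ∫ x, ‖gradient f x‖ ^ 2 ∂μ := by
  have hT0 : 0 < T := by linarith
  have hcf : Continuous f := hf.continuous
  set g : ℝ → ℝ := fun u => T * ramp ((u - T) / T) with hg
  have hgcd : ContDiff ℝ ∞ g :=
    contDiff_const.mul (ramp_contDiff.comp ((contDiff_id.sub contDiff_const).div_const T))
  have hgc : Continuous g := hgcd.continuous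
  have hgd : ∀ u, HasDerivAt g (Real.smoothTransition ((u - T) / T)) u := by
    intro u
    have h1 : HasDerivAt (fun u : ℝ => (u - T) / T) (1 / T) u :=
      ((hasDerivAt_id u).sub_const T).div_const T
    have h2 := ((ramp_hasDeriv ((u - T) / T)).comp u h1).const_mul T
    have h3 : T * (Real.smoothTransition ((u - T) / T) * (1 / T)) =
        Real.smoothTransition ((u - T) / T) := by
      field_simp
    rw [h3] at h2
    exact h2
  have hg0 : ∀ u, u ≤ T → g u = 0 := by
    intro u hu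
    simp only [hg]
    rw [ramp_of_nonpos (div_nonpos_of_nonpos_of_nonneg (by linarith) hT0.le), mul_zero]
  have hgnn : ∀ u, 0 ≤ g u := fun u => mul_nonneg hT0.le (ramp_nonneg _)
  have hgmono : Monotone g := by
    intro a b hab
    exact mul_le_mul_of_nonneg_left (ramp_mono (by gcongr)) hT0.le
  have hgle : ∀ u, T ≤ u → g u ≤ u - T := by
    intro u hu
    have h1 := ramp_le (u := (u - T) / T) (div_nonneg (by linarith) hT0.le)
    calc g u ≤ T * ((u - T) / T) := mul_le_mul_of_nonneg_left h1 hT0.le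
      _ = u - T := by field_simp
  have hgge : ∀ u, u - 2 * T ≤ g u := by
    intro u
    have h1 := le_ramp ((u - T) / T)
    calc u - 2 * T = T * ((u - T) / T - 1) := by field_simp; ring
      _ ≤ g u := mul_le_mul_of_nonneg_left h1 hT0.le
  set h : EuclideanSpace ℝ (Fin n) → ℝ := fun x => g (f x) with hh
  have hh_cd : ContDiff ℝ ∞ h := hgcd.comp hf
  have hh_cs : HasCompactSupport h := hc.comp_left (g := g) (hg0 0 hT0.le)
  have hup : ∀ x, h x ≤ max (|f x| - T) 0 := by
    intro x
    rcases le_total (f x) T with h1 | h1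
    · simp only [hh]
      rw [hg0 _ h1]
      exact le_max_right _ _
    · refine le_trans (hgle _ h1) (le_trans ?_ (le_max_left _ _))
      linarith [le_abs_self (f x)]
  have hlow : ∀ x, |f x| - 2 * T ≤ h x := by
    intro x
    rcases le_or_gt |f x| T with h1 | h1
    · linarith [hgnn (f x)]
    · have h2 := hpos x h1
      rw [abs_of_pos h2]
      exact hgge _
  have hh_qc : QuasiconcaveOn ℝ univ (fun x => |h x|) := by
    intro r x hx y hy a b ha hb hab
    refine ⟨mem_univ _, ?_⟩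
    rcases le_or_gt r 0 with hr | hr
    · exact hr.trans (abs_nonneg _)
    have hx2 : r ≤ h x := by
      have h1 : r ≤ |h x| := hx.2
      rwa [abs_of_nonneg (show 0 ≤ h x from hgnn _)] at h1
    have hy2 : r ≤ h y := by
      have h1 : r ≤ |h y| := hy.2
      rwa [abs_of_nonneg (show 0 ≤ h y from hgnn _)] at h1
    have hxT : T < f x := by
      by_contra hcon
      push Not at hcon
      have : h x = 0 := hg0 _ hcon
      linarith
    have hyT : T < f y := by
      by_contra hcon
      push Not at hcon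
      have : h y = 0 := hg0 _ hcon
      linarith
    set t := min (f x) (f y) with ht
    have htT : T < t := lt_min hxT hyT
    have hx' : x ∈ {x | t ≤ |f x|} := by
      show t ≤ |f x|
      exact (min_le_left _ _).trans (le_abs_self _)
    have hy' : y ∈ {x | t ≤ |f x|} := by
      show t ≤ |f y|
      exact (min_le_right _ _).trans (le_abs_self _)
    have hz : t ≤ |f (a • x + b • y)| := hconv t htT hx' hy' ha hb hab
    have hzp := hpos _ (htT.trans_le hz)
    rw [abs_of_pos hzp] at hz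
    have h1 : g t ≤ h (a • x + b • y) := hgmono hz
    have h2 : r ≤ g t := by
      rcases le_total (f x) (f y) with h3 | h3
      · rw [ht, min_eq_left h3]
        exact hx2
      · rw [ht, min_eq_right h3]
        exact hy2
    exact (h2.trans h1).trans (le_abs_self _)
  -- gradients
  have hng : ∀ (u : EuclideanSpace ℝ (Fin n) → ℝ) x, ‖gradient u x‖ = ‖fderiv ℝ u x‖ := by
    intro u x
    rw [gradient, LinearIsometryEquiv.norm_map]
  have hgrad : ∀ x, ‖gradient h x‖ ≤ ‖gradient f x‖ := by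
    intro x
    have h1 : HasFDerivAt f (fderiv ℝ f x) x :=
      (hf.differentiable (by simp)).differentiableAt.hasFDerivAt
    have h2 : HasFDerivAt h (Real.smoothTransition ((f x - T) / T) • fderiv ℝ f x) x :=
      (hgd (f x)).comp_hasFDerivAt x h1
    rw [hng, hng, h2.fderiv, norm_smul, Real.norm_eq_abs,
      abs_of_nonneg (Real.smoothTransition.nonneg _)]
    exact mul_le_of_le_one_left (norm_nonneg _) (Real.smoothTransition.le_one _)
  obtain ⟨L, hL⟩ := (hc.fderiv ℝ).exists_bound_of_continuous (hf.continuous_fderiv (by simp))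
  have hfi : Integrable (fun x => ‖gradient f x‖ ^ 2) μ := by
    refine Integrable.of_bound (C := L ^ 2) ?_ (ae_of_all _ fun x => ?_)
    · simp_rw [hng]
      exact ((hf.continuous_fderiv (by simp)).norm.pow 2).aestronglyMeasurable
    · rw [Real.norm_eq_abs, abs_of_nonneg (by positivity), hng]
      exact pow_le_pow_left₀ (norm_nonneg _) (hL x) 2
  set I : ℝ := ∫ x, ‖gradient f x‖ ^ 2 ∂μ with hI
  have hhI : ∫ x, ‖gradient h x‖ ^ 2 ∂μ ≤ I := by
    refine integral_mono_of_nonneg (ae_of_all _ fun x => by positivity) hfi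
      (ae_of_all _ fun x => ?_)
    exact pow_le_pow_left₀ (norm_nonneg _) (hgrad x) 2
  have hEh := (hQC h hh_cd hh_cs hh_qc).trans (mul_le_mul_of_nonneg_left hhI hD)
  have hPf := hPo f hf hc
  -- integrability
  obtain ⟨B, hB⟩ := hc.exists_bound_of_continuous hcf
  have hint : ∀ φ : ℝ → ℝ, Continuous φ → Integrable (fun x => φ (f x)) μ := by
    intro φ hφ
    obtain ⟨E, hE⟩ := (isCompact_Icc (a := -B) (b := B)).exists_bound_of_continuousOn
      (f := φ) hφ.continuousOn
    refine Integrable.of_bound (hφ.comp hcf).aestronglyMeasurable E (ae_of_all _ fun x => ?_)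
    exact hE _ (abs_le.1 (by simpa using hB x))
  have i1 : Integrable (fun x => f x ^ 2 * Real.log (f x ^ 2)) μ :=
    hint (fun u => u ^ 2 * Real.log (u ^ 2)) (Real.continuous_mul_log.comp (continuous_pow 2))
  have i2 : Integrable (fun x => f x ^ 2) μ := hint (fun u => u ^ 2) (by fun_prop)
  have i3 : Integrable (fun x => |f x|) μ := hint (fun u => |u|) (by fun_prop)
  have i4 : Integrable (fun x => h x ^ 2 * Real.log (h x ^ 2)) μ :=
    hint (fun u => g u ^ 2 * Real.log (g u ^ 2)) (Real.continuous_mul_log.comp (hgc.pow 2))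
  have i5 : Integrable (fun x => h x ^ 2) μ := hint (fun u => g u ^ 2) (hgc.pow 2)
  set m : ℝ := ∫ x, |f x| ∂μ with hm
  set q : ℝ := ∫ x, h x ^ 2 ∂μ with hq
  have hm0 : 0 ≤ m := integral_nonneg fun x => abs_nonneg _
  have hq0 : 0 ≤ q := integral_nonneg fun x => sq_nonneg _
  have hqN : q ≤ N ^ 2 := by
    rw [← hN2]
    refine integral_mono i5 i2 fun x => ?_
    have h1 : h x ≤ |f x| := (hup x).trans (max_le (by linarith) (abs_nonneg _))
    show h x ^ 2 ≤ f x ^ 2
    rw [← sq_abs (f x)]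
    exact pow_le_pow_left₀ (hgnn _) h1 2
  have hsq : ∀ c : ℝ, ∫ x, (|f x| - c) ^ 2 ∂μ = N ^ 2 - 2 * c * m + c ^ 2 := by
    intro c
    have e : (fun x => (|f x| - c) ^ 2) = fun x => f x ^ 2 - 2 * c * |f x| + c ^ 2 := by
      funext x
      rw [sub_sq, sq_abs]
      ring
    have j1 : Integrable (fun x => 2 * c * |f x|) μ := i3.const_mul (2 * c)
    have j2 : Integrable (fun x => f x ^ 2 - 2 * c * |f x|) μ := i2.sub j1
    rw [e, integral_add j2 (integrable_const _), integral_sub i2 j1, integral_const_mul, hN2]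
    simp [hm]
  have hmN : m ≤ N := by
    have h1 : 0 ≤ ∫ x, (|f x| - m) ^ 2 ∂μ := integral_nonneg fun x => sq_nonneg _
    rw [hsq m] at h1
    nlinarith
  have hmf : (∫ x, f x ∂μ) ^ 2 ≤ m ^ 2 := by
    rw [← sq_abs (∫ x, f x ∂μ)]
    exact pow_le_pow_left₀ (abs_nonneg _) abs_integral_le_integral_abs 2
  have hvar : ∫ x, (|f x| - N) ^ 2 ∂μ ≤ 2 * (P * I) := by
    rw [hsq N]
    rw [hN2] at hPf
    nlinarith
  have hlR : 0 ≤ Real.log (T / N) := Real.log_nonneg (by rw [le_div_iff₀ hN]; linarith)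
  -- the pointwise inequality
  have hpw : ∀ x, f x ^ 2 * Real.log (f x ^ 2) - f x ^ 2 * Real.log (N ^ 2) - f x ^ 2 + N ^ 2 ≤
      4 * (h x ^ 2 * Real.log (h x ^ 2) - h x ^ 2 * Real.log (N ^ 2)) +
        (13 + 9 * Real.log (T / N)) * (|f x| - N) ^ 2 := by
    intro x
    have h1 := pointwise (v := |f x| / N) (d := h x / N) (R := T / N) (by positivity)
      (by rw [le_div_iff₀ hN]; linarith) (div_nonneg (hgnn _) hN.le)
      (by
        have h2 := hup x
        rcases le_total (|f x| - T) 0 with h3 | h3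
        · rw [max_eq_right h3] at h2
          exact (div_nonpos_of_nonpos_of_nonneg h2 hN.le).trans (le_max_right _ _)
        · rw [max_eq_left h3] at h2
          refine le_trans ?_ (le_max_left _ _)
          rw [← sub_div]
          gcongr)
      (by
        have h2 := hlow x
        rw [← mul_div_assoc, ← sub_div]
        gcongr)
    have h2 := mul_le_mul_of_nonneg_left h1 (sq_nonneg N)
    have e1 := sq_log_div (u := |f x|) hN
    have e2 := sq_log_div (u := h x) hN
    rw [sq_abs] at e1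
    have e3 : N ^ 2 * (|f x| / N) ^ 2 = f x ^ 2 := by
      rw [div_pow, sq_abs]
      field_simp
    have e4 : N ^ 2 * (|f x| / N - 1) ^ 2 = (|f x| - N) ^ 2 := by
      field_simp
    calc f x ^ 2 * Real.log (f x ^ 2) - f x ^ 2 * Real.log (N ^ 2) - f x ^ 2 + N ^ 2
        = N ^ 2 * ((|f x| / N) ^ 2 * Real.log ((|f x| / N) ^ 2) - (|f x| / N) ^ 2 + 1) := by
          rw [mul_add, mul_sub, e1, e3]
          ring
      _ ≤ _ := h2
      _ = 4 * (N ^ 2 * ((h x / N) ^ 2 * Real.log ((h x / N) ^ 2))) +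
          (13 + 9 * Real.log (T / N)) * (N ^ 2 * (|f x| / N - 1) ^ 2) := by ring
      _ = _ := by rw [e2, e4]
  have hJ1 : Integrable (fun x => f x ^ 2 * Real.log (f x ^ 2) - f x ^ 2 * Real.log (N ^ 2)) μ :=
    i1.sub (i2.mul_const _)
  have hJ2 : Integrable (fun x =>
      f x ^ 2 * Real.log (f x ^ 2) - f x ^ 2 * Real.log (N ^ 2) - f x ^ 2) μ := hJ1.sub i2
  have hJ3 : Integrable (fun x =>
      h x ^ 2 * Real.log (h x ^ 2) - h x ^ 2 * Real.log (N ^ 2)) μ := i4.sub (i5.mul_const _)
  have hJ4 : Integrable (fun x => (|f x| - N) ^ 2) μ :=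
    hint (fun u => (|u| - N) ^ 2) (by fun_prop)
  have hmono := integral_mono (hJ2.add (integrable_const (N ^ 2)))
    ((hJ3.const_mul 4).add (hJ4.const_mul (13 + 9 * Real.log (T / N)))) hpw
  have hl : ∫ x, (f x ^ 2 * Real.log (f x ^ 2) - f x ^ 2 * Real.log (N ^ 2) - f x ^ 2 + N ^ 2) ∂μ =
      (∫ x, f x ^ 2 * Real.log (f x ^ 2) ∂μ) - N ^ 2 * Real.log (N ^ 2) := by
    rw [integral_add hJ2 (integrable_const _), integral_sub hJ1 i2,
      integral_sub i1 (i2.mul_const _), integral_mul_const, hN2]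
    simp
  have hr : ∫ x, (4 * (h x ^ 2 * Real.log (h x ^ 2) - h x ^ 2 * Real.log (N ^ 2)) +
        (13 + 9 * Real.log (T / N)) * (|f x| - N) ^ 2) ∂μ =
      4 * ((∫ x, h x ^ 2 * Real.log (h x ^ 2) ∂μ) - q * Real.log (N ^ 2)) +
        (13 + 9 * Real.log (T / N)) * ∫ x, (|f x| - N) ^ 2 ∂μ := by
    rw [integral_add (hJ3.const_mul 4) (hJ4.const_mul _), integral_const_mul, integral_const_mul,
      integral_sub i4 (i5.mul_const _), integral_mul_const]
  have hmono' : (∫ x, f x ^ 2 * Real.log (f x ^ 2) ∂μ) - N ^ 2 * Real.log (N ^ 2) ≤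
      4 * ((∫ x, h x ^ 2 * Real.log (h x ^ 2) ∂μ) - q * Real.log (N ^ 2)) +
        (13 + 9 * Real.log (T / N)) * ∫ x, (|f x| - N) ^ 2 ∂μ := by
    rw [← hl, ← hr]
    exact hmono
  have hqlog : q * Real.log q ≤ q * Real.log (N ^ 2) := by
    rcases hq0.eq_or_lt with h1 | h1
    · rw [← h1]
      simp
    · exact mul_le_mul_of_nonneg_left (Real.log_le_log h1 hqN) hq0
  have hEh' : (∫ x, h x ^ 2 * Real.log (h x ^ 2) ∂μ) - q * Real.log q ≤ D * I := hEh
  show (∫ x, f x ^ 2 * Real.log (f x ^ 2) ∂μ) - (∫ x, f x ^ 2 ∂μ) * Real.log (∫ x, f x ^ 2 ∂μ) ≤ _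
  rw [hN2]
  have hlast : (13 + 9 * Real.log (T / N)) * ∫ x, (|f x| - N) ^ 2 ∂μ ≤
      (13 + 9 * Real.log (T / N)) * (2 * (P * I)) := by
    gcongr
  calc (∫ x, f x ^ 2 * Real.log (f x ^ 2) ∂μ) - N ^ 2 * Real.log (N ^ 2)
      ≤ 4 * (D * I) + (13 + 9 * Real.log (T / N)) * (2 * (P * I)) := by linarith
    _ = (4 * D + 2 * P * (13 + 9 * Real.log (T / N))) * I := by ring

theorem high_convex {μ : Measure (EuclideanSpace ℝ (Fin n))} [IsProbabilityMeasure μ] {D P : ℝ}
    (hD : 0 ≤ D) (hP : 0 ≤ P)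
    (hQC : ∀ g : EuclideanSpace ℝ (Fin n) → ℝ, ContDiff ℝ ∞ g → HasCompactSupport g →
      QuasiconcaveOn ℝ univ (fun x => |g x|) →
      Entropy μ (fun x => g x ^ 2) ≤ D * ∫ x, ‖gradient g x‖ ^ 2 ∂μ)
    (hPo : ∀ g : EuclideanSpace ℝ (Fin n) → ℝ, ContDiff ℝ ∞ g → HasCompactSupport g →
      (∫ x, g x ^ 2 ∂μ) - (∫ x, g x ∂μ) ^ 2 ≤ P * ∫ x, ‖gradient g x‖ ^ 2 ∂μ)
    {f : EuclideanSpace ℝ (Fin n) → ℝ} (hf : ContDiff ℝ ∞ f) (hc : HasCompactSupport f)
    {T : ℝ} (hconv : ∀ t, T < t → Convex ℝ {x | t ≤ |f x|}) :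
    Entropy μ (fun x => f x ^ 2) ≤
      (4 * D + 40 * P) * (1 + Real.log (1 + T ^ 2 / ∫ x, f x ^ 2 ∂μ)) *
        ∫ x, ‖gradient f x‖ ^ 2 ∂μ := by
  have hI0 : 0 ≤ ∫ x, ‖gradient f x‖ ^ 2 ∂μ := integral_nonneg fun x => by positivity
  have hm0 : 0 ≤ ∫ x, f x ^ 2 ∂μ := integral_nonneg fun x => sq_nonneg _
  have hl0 : 0 ≤ Real.log (1 + T ^ 2 / ∫ x, f x ^ 2 ∂μ) :=
    Real.log_nonneg (by linarith [div_nonneg (sq_nonneg T) hm0])
  have hcf : Continuous f := hf.continuous
  obtain ⟨B, hB⟩ := hc.exists_bound_of_continuous hcf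
  have i2 : Integrable (fun x => f x ^ 2) μ := by
    refine Integrable.of_bound (hcf.pow 2).aestronglyMeasurable (B ^ 2) (ae_of_all _ fun x => ?_)
    rw [norm_pow]
    exact pow_le_pow_left₀ (norm_nonneg _) (hB x) 2
  rcases hm0.eq_or_lt with h0 | h0
  · have hz : (fun x => f x ^ 2) =ᵐ[μ] 0 :=
      (integral_eq_zero_iff_of_nonneg (fun x => sq_nonneg (f x)) i2).1 h0.symm
    have h1 : ∫ x, f x ^ 2 * Real.log (f x ^ 2) ∂μ = 0 := by
      rw [integral_congr_ae (g := fun _ => (0 : ℝ))]
      · simp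
      · filter_upwards [hz] with x hx
        simp only [Pi.zero_apply] at hx
        rw [hx, zero_mul]
    show (∫ x, f x ^ 2 * Real.log (f x ^ 2) ∂μ) -
      (∫ x, f x ^ 2 ∂μ) * Real.log (∫ x, f x ^ 2 ∂μ) ≤ _
    rw [h1, ← h0]
    simp only [zero_mul, sub_zero, div_zero, add_zero, Real.log_one, mul_one]
    positivity
  set N : ℝ := √(∫ x, f x ^ 2 ∂μ) with hN
  have hNpos : 0 < N := Real.sqrt_pos.2 h0
  have hN2 : ∫ x, f x ^ 2 ∂μ = N ^ 2 := (Real.sq_sqrt hm0).symm
  set T' : ℝ := max T (2 * N) with hT'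
  have hT'2 : 2 * N ≤ T' := le_max_right _ _
  have hTT' : T ≤ T' := le_max_left _ _
  have hconv' : ∀ t, T' < t → Convex ℝ {x | t ≤ |f x|} := fun t ht => hconv t (hTT'.trans_lt ht)
  have hT'0 : 0 < T' := by linarith
  have hlog : Real.log (T' / N) ≤ 0.7 + Real.log (1 + T ^ 2 / N ^ 2) / 2 := by
    have h1 : (T' / N) ^ 2 ≤ 2 ^ 2 * (1 + T ^ 2 / N ^ 2) := by
      have h2 : T' ^ 2 ≤ 4 * (N ^ 2 + T ^ 2) := by
        rcases le_total T (2 * N) with h3 | h3
        · rw [hT', max_eq_right h3]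
          nlinarith [sq_nonneg T]
        · rw [hT', max_eq_left h3]
          nlinarith [sq_nonneg T, sq_nonneg N]
      rw [div_pow, div_le_iff₀ (by positivity)]
      have h4 : 2 ^ 2 * (1 + T ^ 2 / N ^ 2) * N ^ 2 = 4 * (N ^ 2 + T ^ 2) := by
        field_simp
        ring
      rw [h4]
      exact h2
    have h5 : 2 * Real.log (T' / N) ≤ 2 * Real.log 2 + Real.log (1 + T ^ 2 / N ^ 2) := by
      have h6 : Real.log ((T' / N) ^ 2) ≤ Real.log (2 ^ 2 * (1 + T ^ 2 / N ^ 2)) :=
        Real.log_le_log (by positivity) h1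
      rw [Real.log_mul (by norm_num) (by positivity), Real.log_pow, Real.log_pow] at h6
      push_cast at h6
      exact h6
    linarith [Real.log_two_lt_d9]
  have hfin : Entropy μ (fun x => f x ^ 2) ≤
      (4 * D + 2 * P * (13 + 9 * Real.log (T' / N))) * ∫ x, ‖gradient f x‖ ^ 2 ∂μ := by
    rcases one_sign hcf hT'0.le hconv' with hs | hs
    · exact core hD hQC hPo hf hc hNpos hN2 hT'2 hs hconv'
    · have e1 : ∀ x, gradient (fun x => -f x) x = -gradient f x := by
        intro x
        unfold gradient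
        rw [fderiv_fun_neg, map_neg]
      have h1 := core (f := fun x => -f x) hD hQC hPo hf.neg hc.neg hNpos
        (by simpa using hN2) hT'2 (by
          intro x hx
          rw [abs_neg] at hx
          have := hs x hx
          linarith) (by simpa using hconv')
      simpa [e1, neg_sq, norm_neg] using h1
  refine hfin.trans (mul_le_mul_of_nonneg_right ?_ hI0)
  rw [hN2] at hl0 ⊢
  nlinarith [mul_nonneg hP hl0, mul_nonneg hD hl0, mul_le_mul_of_nonneg_left hlog hP]

end Vale.Agent.P245.H68
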