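import Vale.Agent.P245.H68.Trunc
import Vale.Agent.P245.H368.FinU

/-! P245: log-Sobolev inequality for functions whose level sets above a threshold are finite
disjoint unions of closed convex sets (helper68, over helper368's `finU`) -/

open MeasureTheory Set Filter Topology
open scoped ENNReal ContDiff

namespace Vale.Agent.P245.H68

open Vale.Agent.P245.QC Vale.Agent.P245.H368

variable {n : ℕ}

/-- levels of `φ_T(|f|)`: almost every positive level is a good level of `|f|` above `T` -/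
theorem ae_levels {T : ℝ} (hT : 0 < T) {G : ℝ → Prop} (hG : ∀ᵐ t : ℝ, T < t → G t) :
    ∀ᵐ s : ℝ, 0 < s → ∃ t, T < t ∧ gr T t = s ∧ G t := by
  have h0 : volume {t : ℝ | ¬ (T < t → G t)} = 0 := hG
  have h1 : volume (gr T '' {t : ℝ | ¬ (T < t → G t)}) = 0 := by
    refine addHaar_image_eq_zero_of_differentiableOn_of_addHaar_eq_zero volume ?_ h0
    exact fun t _ => (gr_hasDeriv hT t).differentiableAt.differentiableWithinAt
  have h2 : ∀ᵐ s : ℝ, s ∉ gr T '' {t : ℝ | ¬ (T < t → G t)} := by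
    rw [ae_iff]
    have e : {a | ¬ a ∉ gr T '' {t : ℝ | ¬ (T < t → G t)}} =
        gr T '' {t : ℝ | ¬ (T < t → G t)} := by
      ext a
      exact not_not
    rw [e]
    exact h1
  filter_upwards [h2] with s hs hs0
  obtain ⟨t, htT, hts⟩ := gr_surj hT hs0
  refine ⟨t, htT, hts, ?_⟩
  by_contra hcon
  exact hs ⟨t, fun h => hcon (h htT), hts⟩

/-- **Threshold form for multi-peak functions.** -/
theorem high_union (hM : StMed) (hPW : StPW) {μ : Measure (EuclideanSpace ℝ (Fin n))}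
    [IsProbabilityMeasure μ] {κ r₀ P : ℝ} (hκ : 0 < κ) (hr₀ : 0 < r₀) (hP : 0 ≤ P)
    (hIso : Iso μ κ r₀)
    (hPoin : ∀ f : EuclideanSpace ℝ (Fin n) → ℝ, ContDiff ℝ ∞ f → HasCompactSupport f →
      (∫ x, f x ^ 2 ∂μ) - (∫ x, f x ∂μ) ^ 2 ≤ P * ∫ x, ‖gradient f x‖ ^ 2 ∂μ)
    {f : EuclideanSpace ℝ (Fin n) → ℝ} (hf : ContDiff ℝ ∞ f) (hc : HasCompactSupport f) {T : ℝ}
    (hq : ∀ᵐ t : ℝ, T < t → FinConv {x | t ≤ |f x|}) :
    Entropy μ (fun x => f x ^ 2) ≤
      (280 * P + 2560 * κ ^ 2) * (1 + Real.log (1 + T ^ 2 / ∫ x, f x ^ 2 ∂μ)) *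
        ∫ x, ‖gradient f x‖ ^ 2 ∂μ := by
  have h1 := of_trunc (D := 60 * P + 640 * κ ^ 2) (P := P) (by positivity) hP hf hc
    (hPoin f hf hc) (T := T) (fun T' hT'0 hTT' _ => by
      refine finU hM hPW hκ hr₀ hIso hPoin (h_contDiff hT'0 hf) (h_compact hT'0 hc) ?_
      have hq' : ∀ᵐ t : ℝ, T' < t → FinConv {x | t ≤ |f x|} := by
        filter_upwards [hq] with t ht htT
        exact ht (hTT'.trans_lt htT)
      filter_upwards [ae_levels hT'0 hq'] with s hs hs0 _
      obtain ⟨t, htT, hts, hG⟩ := hs hs0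
      have e : {x | s ≤ |(fun x => gr T' |f x|) x|} = {x | t ≤ |f x|} := by
        ext x
        show s ≤ |(gr T' |f x|)| ↔ t ≤ |f x|
        rw [abs_of_nonneg (gr_nonneg hT'0 _), ← hts]
        exact gr_le_gr_iff hT'0 htT
      rw [e]
      exact hG)
  refine h1.trans (le_of_eq ?_)
  ring

end Vale.Agent.P245.H68
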