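import Vale.Agent.P245.H68.Multi
import Vale.Agent.P245.H316.Fill
import Vale.Agent.P245.QC.Iso

/-! P245: star-shaped level sets (helper68, after row ISO of QC) -/

open MeasureTheory Set Filter Topology
open scoped ENNReal ContDiff

namespace Vale.Agent.P245.H68

open Vale.Agent.P245.QC Vale.Agent.P245.QC.IsoAux Vale.Agent.P245.H368 Vale.Agent.P245.H333
  Vale.Agent.P245.H316

variable {n : ℕ}

/-- isoperimetric inequality for a closed set `A`, star-shaped with respect to every point of a
closed convex set `Q` with `μ(Q) ≥ μ(A)^M` -/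
theorem iso_star (hBM : StBM) {μ : Measure (EuclideanSpace ℝ (Fin n))} [IsProbabilityMeasure μ]
    (hlc : HasLogConcaveDensity μ) {K : ℝ} (hK : 0 < K) (hCC : CC μ K)
    (hint : ∀ F : EuclideanSpace ℝ (Fin n) → ℝ, LipschitzWith 1 F → Integrable F μ)
    {M : ℝ} (hM : 1 ≤ M) {A Q : Set (EuclideanSpace ℝ (Fin n))} (hA : IsClosed A)
    (hQ : Convex ℝ Q) (hQc : IsClosed Q) (hstar : ∀ q ∈ Q, StarConvex ℝ q A)
    (hMQ : μ.real A ^ M ≤ μ.real Q) (hp : 0 < μ.real A) (hp2 : μ.real A ≤ 1 / 2)
    {r : ℝ} (hr : 0 ≤ r) (hr0 : r ≤ 8 * √(K * Real.log 2)) :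
    μ.real A * (1 + r * √(Real.log (1 / μ.real A)) / (16 * √(K * M))) ≤
      μ.real (Metric.cthickening r A) := by
  have hne : A.Nonempty := by
    rw [nonempty_iff_ne_empty]
    intro h
    rw [h] at hp
    simp at hp
  have hM0 : 0 < M := by linarith
  have hQp : 0 < μ.real Q := (Real.rpow_pos_of_pos hp M).trans_le hMQ
  have hQne : Q.Nonempty := by
    rw [nonempty_iff_ne_empty]
    intro h
    rw [h] at hQp
    simp at hQp
  have hQA : Q ⊆ A := by
    intro q hq
    obtain ⟨x, hx⟩ := hne
    have := hstar q hq hx (show (0 : ℝ) ≤ 1 by norm_num) (show (0 : ℝ) ≤ 0 by norm_num)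
      (by norm_num)
    simpa using this
  have hQ2 : μ.real Q ≤ 1 / 2 := (measureReal_mono hQA (measure_ne_top _ _)).trans hp2
  have hmean0 := mean_le hK hCC hQ hQc hQp hQ2
  have hA0 : μ.real A ≤ μ.real (Metric.cthickening r A) :=
    measureReal_mono (Metric.self_subset_cthickening A)
  rcases hr.eq_or_lt with h0 | hrpos
  · rw [← h0] at hA0 ⊢
    simpa using hA0
  set p := μ.real A with hpdef
  set L := Real.log (1 / p) with hL
  have hlog2 : 0 < Real.log 2 := Real.log_pos (by norm_num)
  have hLlog : Real.log 2 ≤ L := by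
    apply Real.log_le_log (by norm_num)
    rw [le_div_iff₀ hp]; linarith
  have hLpos : 0 < L := lt_of_lt_of_le hlog2 hLlog
  have hKM : 0 < K * M := by positivity
  have hLQ : Real.log (1 / μ.real Q) ≤ M * L := by
    have h1 := Real.log_le_log (Real.rpow_pos_of_pos hp M) hMQ
    rw [Real.log_rpow hp] at h1
    rw [hL, one_div, one_div, Real.log_inv, Real.log_inv]
    linarith
  have hmean : ∫ x, Metric.infDist x Q ∂μ ≤ 2 * √(K * M * L) := by
    refine hmean0.trans ?_
    have h1 : √(K * Real.log (1 / μ.real Q)) ≤ √(K * M * L) := by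
      apply Real.sqrt_le_sqrt
      rw [mul_assoc]
      exact mul_le_mul_of_nonneg_left hLQ hK.le
    linarith
  have hKL : 0 < √(K * M * L) := Real.sqrt_pos.2 (by positivity)
  set R := 8 * √(K * M * L) with hR
  have hRpos : 0 < R := by positivity
  have hrR : r ≤ R := by
    refine hr0.trans ?_
    rw [hR]
    have h1 : √(K * Real.log 2) ≤ √(K * M * L) := by
      apply Real.sqrt_le_sqrt
      calc K * Real.log 2 ≤ K * L := mul_le_mul_of_nonneg_left hLlog hK.le
        _ ≤ K * M * L := by nlinarith [mul_pos hK hLpos]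
    linarith
  -- Markov
  have hMar : 3 / 4 ≤ μ.real (Metric.cthickening R Q) := by
    have h1 : R * μ.real {x | R ≤ Metric.infDist x Q} ≤ ∫ x, Metric.infDist x Q ∂μ :=
      mul_meas_ge_le_integral_of_nonneg (Eventually.of_forall fun x => Metric.infDist_nonneg)
        (hint _ (Metric.lipschitz_infDist_pt Q)) R
    have h2 : μ.real {x | R ≤ Metric.infDist x Q} ≤ 1 / 4 := by
      have h3 : R * μ.real {x | R ≤ Metric.infDist x Q} ≤ R * (1 / 4) := by
        refine h1.trans (hmean.trans ?_)
        rw [hR]; linarith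
      exact le_of_mul_le_mul_left h3 hRpos
    have h4 : (Metric.cthickening R Q)ᶜ ⊆ {x | R ≤ Metric.infDist x Q} := by
      rw [cth_eq hQne hRpos.le]
      intro x hx
      simp only [mem_compl_iff, mem_setOf_eq, not_le] at hx ⊢
      exact hx.le
    have h5 : μ.real (Metric.cthickening R Q)ᶜ ≤ 1 / 4 := (measureReal_mono h4).trans h2
    have h6 := measureReal_compl (μ := μ)
      (Metric.isClosed_cthickening (δ := R) (E := Q)).measurableSet
    rw [probReal_univ] at h6
    linarith
  set s := r / R with hs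
  have hspos : 0 < s := by positivity
  have hs1 : s ≤ 1 := by rw [hs, div_le_one hRpos]; exact hrR
  have hsR : s * R = r := by rw [hs]; field_simp
  have hmain : p ^ (1 - s) * (3 / 4 : ℝ) ^ s ≤ μ.real (Metric.cthickening r A) := by
    rcases hs1.eq_or_lt with h1 | h1
    · have hrR' : r = R := by rw [← hsR, h1, one_mul]
      have h7 : μ.real (Metric.cthickening R Q) ≤ μ.real (Metric.cthickening R A) :=
        measureReal_mono (Metric.cthickening_subset_of_subset R hQA) (measure_ne_top _ _)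
      rw [h1, hrR']
      simpa using hMar.trans h7
    · have h2 := hBM n μ hlc A (Metric.cthickening R Q) (Metric.cthickening r A)
        hA.measurableSet (Metric.isClosed_cthickening (δ := R) (E := Q)).measurableSet
        (Metric.isClosed_cthickening (δ := r) (E := A)).measurableSet s hspos h1 (by
          intro x hx y hy
          rw [cth_eq hQne hRpos.le, mem_setOf_eq] at hy
          rw [cth_eq hne hr, mem_setOf_eq]
          obtain ⟨q, hq, hq'⟩ := hQc.exists_infDist_eq_dist hQne y
          have h3 : (1 - s) • x + s • q ∈ A := by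
            have := hstar q hq hx hspos.le (show 0 ≤ 1 - s by linarith) (by ring)
            rwa [add_comm] at this
          refine (Metric.infDist_le_dist_of_mem h3).trans ?_
          rw [dist_eq_norm]
          have h4 : (1 - s) • x + s • y - ((1 - s) • x + s • q) = s • (y - q) := by
            rw [smul_sub]; abel
          rw [h4, norm_smul, Real.norm_of_nonneg hspos.le, ← dist_eq_norm, ← hq']
          calc s * Metric.infDist y Q ≤ s * R := by gcongr
            _ = r := hsR)
      refine le_trans ?_ h2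
      gcongr
  refine le_trans ?_ hmain
  -- numbers
  have h34 : (3 / 4 : ℝ) = p * (3 / (4 * p)) := by field_simp
  have hq : 0 < 3 / (4 * p) := by positivity
  have e1 : p ^ (1 - s) * (3 / 4 : ℝ) ^ s = p * (3 / (4 * p)) ^ s := by
    rw [show (3 / 4 : ℝ) ^ s = (p * (3 / (4 * p))) ^ s by rw [← h34]]
    rw [Real.mul_rpow hp.le hq.le, ← mul_assoc, ← Real.rpow_add hp]
    simp
  rw [e1]
  have e2 : 1 + s * Real.log (3 / (4 * p)) ≤ (3 / (4 * p)) ^ s := by
    rw [Real.rpow_def_of_pos hq, mul_comm (Real.log _) s]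
    have := Real.add_one_le_exp (s * Real.log (3 / (4 * p)))
    linarith
  have e3 : L / 2 ≤ Real.log (3 / (4 * p)) := by
    have h1 : Real.log (3 / (4 * p)) = Real.log (3 / 4) + L := by
      rw [hL, ← Real.log_mul (by norm_num) (by positivity)]
      congr 1; field_simp
    have h2 : - (Real.log 2 / 2) ≤ Real.log (3 / 4) := by
      have h3 : Real.log (1 / 2) ≤ Real.log ((3 / 4) ^ 2) :=
        Real.log_le_log (by norm_num) (by norm_num)
      rw [Real.log_pow, one_div, Real.log_inv] at h3
      push_cast at h3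
      linarith
    rw [h1]; linarith
  have e4 : r * √L / (16 * √(K * M)) = s * (L / 2) := by
    rw [hs, hR, Real.sqrt_mul hKM.le]
    have hsK : 0 < √(K * M) := Real.sqrt_pos.2 hKM
    have hsL : 0 < √L := Real.sqrt_pos.2 hLpos
    have : L = √L * √L := (Real.mul_self_sqrt hLpos.le).symm
    nth_rewrite 3 [this]
    field_simp
    ring
  rw [e4]
  apply mul_le_mul_of_nonneg_left _ hp.le
  calc 1 + s * (L / 2) ≤ 1 + s * Real.log (3 / (4 * p)) := by gcongr
    _ ≤ _ := e2

/-- `A` is a finite union of pairwise disjoint closed sets `B i`, each star-shaped with respect to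
every point of a closed convex set `Q i` with `μ(Q i) ≥ μ(B i)^M`. -/
def StarUnion (μ : Measure (EuclideanSpace ℝ (Fin n))) (M : ℝ)
    (A : Set (EuclideanSpace ℝ (Fin n))) : Prop :=
  ∃ (N : ℕ) (B Q : Fin N → Set (EuclideanSpace ℝ (Fin n))), (∀ i, IsClosed (B i)) ∧
    (∀ i, Convex ℝ (Q i)) ∧ (∀ i, IsClosed (Q i)) ∧ (∀ i, ∀ q ∈ Q i, StarConvex ℝ q (B i)) ∧
    (∀ i, μ.real (B i) ^ M ≤ μ.real (Q i)) ∧ (∀ i j, i ≠ j → Disjoint (B i) (B j)) ∧
    A = ⋃ i, B i

theorem good_star (hBM : StBM) {μ : Measure (EuclideanSpace ℝ (Fin n))} [IsProbabilityMeasure μ]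
    (hlc : HasLogConcaveDensity μ) {K : ℝ} (hK : 0 < K) (hCC : CC μ K)
    (hint : ∀ F : EuclideanSpace ℝ (Fin n) → ℝ, LipschitzWith 1 F → Integrable F μ)
    {M : ℝ} (hM : 1 ≤ M) {A : Set (EuclideanSpace ℝ (Fin n))} (hA : StarUnion μ M A)
    (hAc : IsCompact A) (hp2 : μ.real A ≤ 1 / 2) :
    Good μ (16 * √(K * M)) A := by
  obtain ⟨N, B, Q, hcl, hQ, hQc, hstar, hMQ, hdis, rfl⟩ := hA
  have hM0 : 0 < M := by linarith
  have hlog2 : 0 < Real.log 2 := Real.log_pos (by norm_num)
  have hκ : 0 < 16 * √(K * M) := by positivity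
  have hr₀ : 0 < 8 * √(K * Real.log 2) := by positivity
  have hBc : ∀ i, IsCompact (B i) := fun i => hAc.of_isClosed_subset (hcl i) (subset_iUnion B i)
  obtain ⟨δ, hδ, hsub⟩ := mem_nhdsGT_iff_exists_Ioc_subset.1
    ((H368.disj_thick hBc hdis).and (Ioo_mem_nhdsGT hr₀))
  refine ⟨δ, hδ, fun r hr hrδ => ?_⟩
  obtain ⟨hdr, hr1⟩ := hsub ⟨hr, hrδ⟩
  have hsum : μ.real (⋃ i, B i) = ∑ i, μ.real (B i) := by
    have h := measureReal_biUnion_finset (μ := μ) (s := Finset.univ) (f := B)
      (fun i _ j _ hij => hdis i j hij) (fun i _ => (hcl i).measurableSet)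
    simpa using h
  have hsum2 : μ.real (⋃ i, Metric.cthickening r (B i)) =
      ∑ i, μ.real (Metric.cthickening r (B i)) := by
    have h := measureReal_biUnion_finset (μ := μ) (s := Finset.univ)
      (f := fun i => Metric.cthickening r (B i))
      (fun i _ j _ hij => hdr i j hij) (fun i _ => Metric.isClosed_cthickening.measurableSet)
    simpa using h
  have hle : ∀ i, μ.real (B i) ≤ μ.real (⋃ i, B i) := fun i =>
    measureReal_mono (subset_iUnion B i)
  obtain ⟨c, hc⟩ : ∃ c, c = 1 + r * √(Real.log (1 / μ.real (⋃ i, B i))) / (16 * √(K * M)) :=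
    ⟨_, rfl⟩
  rw [← hc]
  have h1 : ∀ i, μ.real (B i) * c ≤ μ.real (Metric.cthickening r (B i)) := by
    intro i
    rcases (measureReal_nonneg (μ := μ) (s := B i)).eq_or_lt with h | h
    · rw [← h, zero_mul]
      exact measureReal_nonneg
    · have h2 := iso_star hBM hlc hK hCC hint hM (hcl i) (hQ i) (hQc i) (hstar i) (hMQ i) h
        ((hle i).trans hp2) hr1.1.le hr1.2.le
      refine le_trans (mul_le_mul_of_nonneg_left ?_ h.le) h2
      have h3 : √(Real.log (1 / μ.real (⋃ i, B i))) ≤ √(Real.log (1 / μ.real (B i))) := by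
        apply Real.sqrt_le_sqrt
        apply Real.log_le_log
        · exact one_div_pos.2 (h.trans_le (hle i))
        · exact one_div_le_one_div_of_le h (hle i)
      rw [hc]
      have h4 : r * √(Real.log (1 / μ.real (⋃ i, B i))) ≤ r * √(Real.log (1 / μ.real (B i))) :=
        mul_le_mul_of_nonneg_left h3 hr1.1.le
      have h5 := div_le_div_of_nonneg_right h4 hκ.le
      linarith
  have h2 : (⋃ i, Metric.cthickening r (B i)) ⊆ Metric.cthickening r (⋃ i, B i) :=
    iUnion_subset fun i => Metric.cthickening_subset_of_subset r (subset_iUnion B i)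
  calc μ.real (⋃ i, B i) * c = ∑ i, μ.real (B i) * c := by rw [hsum, Finset.sum_mul]
    _ ≤ ∑ i, μ.real (Metric.cthickening r (B i)) := Finset.sum_le_sum fun i _ => h1 i
    _ = μ.real (⋃ i, Metric.cthickening r (B i)) := hsum2.symm
    _ ≤ _ := measureReal_mono h2

/-- **Threshold form for functions whose level sets are finite disjoint unions of star-shaped
sets.** -/
theorem high_star (hBM : StBM) (hMed : StMed) (hPW : StPW)
    {μ : Measure (EuclideanSpace ℝ (Fin n))} [IsProbabilityMeasure μ]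
    (hlc : HasLogConcaveDensity μ) {K P : ℝ} (hK : 0 < K) (hP : 0 ≤ P) (hCC : CC μ K)
    (hint : ∀ F : EuclideanSpace ℝ (Fin n) → ℝ, LipschitzWith 1 F → Integrable F μ)
    (hPoin : ∀ f : EuclideanSpace ℝ (Fin n) → ℝ, ContDiff ℝ ∞ f → HasCompactSupport f →
      (∫ x, f x ^ 2 ∂μ) - (∫ x, f x ∂μ) ^ 2 ≤ P * ∫ x, ‖gradient f x‖ ^ 2 ∂μ)
    {M : ℝ} (hM : 1 ≤ M)
    {f : EuclideanSpace ℝ (Fin n) → ℝ} (hf : ContDiff ℝ ∞ f) (hc : HasCompactSupport f) {T : ℝ}
    (hq : ∀ᵐ t : ℝ, T < t → StarUnion μ M {x | t ≤ |f x|}) :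
    Entropy μ (fun x => f x ^ 2) ≤
      (280 * P + 655360 * (K * M)) * (1 + Real.log (1 + T ^ 2 / ∫ x, f x ^ 2 ∂μ)) *
        ∫ x, ‖gradient f x‖ ^ 2 ∂μ := by
  have hM0 : 0 < M := by linarith
  have hκ : 0 < 16 * √(K * M) := by positivity
  have h1 := of_trunc (D := 60 * P + 640 * (16 * √(K * M)) ^ 2) (P := P) (by positivity) hP hf hc
    (hPoin f hf hc) (T := T) (fun T' hT'0 hTT' _ => by
      refine finG hMed hPW hκ hPoin (h_contDiff hT'0 hf) (h_compact hT'0 hc) ?_
      have hq' : ∀ᵐ t : ℝ, T' < t → StarUnion μ M {x | t ≤ |f x|} := by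
        filter_upwards [hq] with t ht htT
        exact ht (hTT'.trans_lt htT)
      filter_upwards [ae_levels hT'0 hq'] with s hs hs0 hhalf _
      obtain ⟨t, htT, hts, hG⟩ := hs hs0
      have e : {x | s ≤ |(fun x => gr T' |f x|) x|} = {x | t ≤ |f x|} := by
        ext x
        show s ≤ |(gr T' |f x|)| ↔ t ≤ |f x|
        rw [abs_of_nonneg (gr_nonneg hT'0 _), ← hts]
        exact gr_le_gr_iff hT'0 htT
      rw [e] at hhalf ⊢
      have ht0 : 0 < t := hT'0.trans htT
      have hcomp : IsCompact {x | t ≤ |f x|} := by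
        refine IsCompact.of_isClosed_subset hc
          (isClosed_le continuous_const hf.continuous.abs) ?_
        intro x hx
        apply subset_tsupport
        have hx' : t ≤ |f x| := hx
        intro h0
        have h00 : f x = 0 := h0
        rw [h00, abs_zero] at hx'
        linarith
      exact good_star hBM hlc hK hCC hint hM hG hcomp hhalf)
  refine h1.trans (le_of_eq ?_)
  rw [mul_pow, Real.sq_sqrt (by positivity)]
  ring

end Vale.Agent.P245.H68
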