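import Vale.Agent.P245.H68.Star
import Vale.Agent.P245.H847.Quasi
import Vale.Agent.P245.H847.HandIn

/-! P245: star-shaped level sets, over the Poincaré inequality `H607.KLS` (helper68) -/

open MeasureTheory
open scoped ContDiff

namespace Vale.Agent.P245.H68

/-- the logarithmic Sobolev inequality for all `f ∈ C_c^∞` for which almost all superlevel sets
`{|f| ≥ t}`, `t > T`, are finite disjoint unions of closed sets `B i`, each star-shaped with respect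
to all points of a closed convex set `Q i` with `μ(Q i) ≥ μ(B i)^M`, with the factor
`M (1 + log (1 + T² / ∫ f²))`. -/
theorem star_of (h : ∃ C : ℝ, 0 < C ∧ H607.KLS C) :
    ∃ D : ℝ, 0 < D ∧ ∀ (n : ℕ) (μ : Measure (EuclideanSpace ℝ (Fin n)))
      [IsProbabilityMeasure μ], HasLogConcaveDensity μ → ∀ a : ℝ, 0 < a →
      LinearlySubgaussian μ a → ∀ M : ℝ, 1 ≤ M →
      ∀ f : EuclideanSpace ℝ (Fin n) → ℝ, ContDiff ℝ ∞ f → HasCompactSupport f →
      ∀ T : ℝ, (∀ᵐ t : ℝ, T < t → StarUnion μ M {x | t ≤ |f x|}) →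
      Entropy μ (fun x => f x ^ 2) ≤
        D * a ^ 2 * M * (1 + Real.log (1 + T ^ 2 / ∫ x, f x ^ 2 ∂μ)) *
          ∫ x, ‖gradient f x‖ ^ 2 ∂μ := by
  obtain ⟨C, hC, h⟩ := h
  have hmain := H847.handin hC h
  refine ⟨280 * (200 * C) + 655360 * (8 * C + 26), by positivity,
    fun n μ _ hlc a ha hsub M hM f hf hfc T hq => ?_⟩
  have hP : ∀ g : EuclideanSpace ℝ (Fin n) → ℝ, ContDiff ℝ ∞ g → HasCompactSupport g →
      (∫ x, g x ^ 2 ∂μ) - (∫ x, g x ∂μ) ^ 2 ≤ 200 * C * a ^ 2 * ∫ x, ‖gradient g x‖ ^ 2 ∂μ :=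
    fun g hg hgc => ((hmain n μ hlc (fun i => ∫ x, x i ∂μ)
      (fun i j => ∫ x, (x i - ∫ x, x i ∂μ) * (x j - ∫ x, x j ∂μ) ∂μ) (fun i => rfl)
      (fun i j => rfl) g hg hgc).2.2 a ha hsub).1
  have h1 := high_star QC.H110.bm QC.H12.med QC.H12.pw hlc (K := (8 * C + 26) * a ^ 2)
    (P := 200 * C * a ^ 2) (by positivity) (by positivity)
    (fun F hF hFc t ht => H607.conc ha hC h hlc hsub hF hFc ht)
    (fun F hF => H607.lip_integrable ha hsub hF) hP hM hf hfc (T := T) hq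
  have hI : 0 ≤ ∫ x, ‖gradient f x‖ ^ 2 ∂μ := integral_nonneg fun x => by positivity
  have hm0 : 0 ≤ ∫ x, f x ^ 2 ∂μ := integral_nonneg fun x => sq_nonneg _
  have hl0 : 0 ≤ 1 + Real.log (1 + T ^ 2 / ∫ x, f x ^ 2 ∂μ) := by
    have := Real.log_nonneg (x := 1 + T ^ 2 / ∫ x, f x ^ 2 ∂μ)
      (by linarith [div_nonneg (sq_nonneg T) hm0])
    linarith
  refine h1.trans (mul_le_mul_of_nonneg_right (mul_le_mul_of_nonneg_right ?_ hl0) hI)
  have h2 : 0 < 280 * (200 * C * a ^ 2) := by positivity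
  nlinarith [mul_nonneg h2.le (sub_nonneg.2 hM)]

end Vale.Agent.P245.H68
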