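import Vale.Agent.P245.H68.Conv

/-! P245: truncation `h = φ_T(|f|)` of a smooth function, and
`Ent(f²) ≤ 4 Ent(h²) + C (1 + log(T/N)) ∫ |∇f|²` (helper68) -/

open MeasureTheory Set Filter Topology
open scoped ENNReal ContDiff

namespace Vale.Agent.P245.H68

variable {n : ℕ}

/-- `φ_T`: zero on `(-∞, T]`, smooth, slope in `[0, 1]`, at least `u - 2 T` -/
noncomputable def gr (T u : ℝ) : ℝ := T * ramp ((u - T) / T)

theorem gr_contDiff (T : ℝ) : ContDiff ℝ ∞ (gr T) :=
  contDiff_const.mul (ramp_contDiff.comp ((contDiff_id.sub contDiff_const).div_const T))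

theorem gr_continuous (T : ℝ) : Continuous (gr T) := (gr_contDiff T).continuous

theorem gr_hasDeriv {T : ℝ} (hT : 0 < T) (u : ℝ) :
    HasDerivAt (gr T) (Real.smoothTransition ((u - T) / T)) u := by
  have h1 : HasDerivAt (fun u : ℝ => (u - T) / T) (1 / T) u :=
    ((hasDerivAt_id u).sub_const T).div_const T
  have h2 := ((ramp_hasDeriv ((u - T) / T)).comp u h1).const_mul T
  have h3 : T * (Real.smoothTransition ((u - T) / T) * (1 / T)) =
      Real.smoothTransition ((u - T) / T) := by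
    field_simp
  rw [h3] at h2
  exact h2

theorem gr_of_le {T : ℝ} (hT : 0 < T) {u : ℝ} (hu : u ≤ T) : gr T u = 0 := by
  unfold gr
  rw [ramp_of_nonpos (div_nonpos_of_nonpos_of_nonneg (by linarith) hT.le), mul_zero]

theorem gr_nonneg {T : ℝ} (hT : 0 < T) (u : ℝ) : 0 ≤ gr T u := mul_nonneg hT.le (ramp_nonneg _)

theorem gr_mono {T : ℝ} (hT : 0 < T) : Monotone (gr T) := by
  intro a b hab
  exact mul_le_mul_of_nonneg_left (ramp_mono (by gcongr)) hT.le

theorem gr_strictMonoOn {T : ℝ} (hT : 0 < T) : StrictMonoOn (gr T) (Ici T) := by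
  apply strictMonoOn_of_deriv_pos (convex_Ici T) (gr_continuous T).continuousOn
  intro u hu
  rw [interior_Ici] at hu
  rw [(gr_hasDeriv hT u).deriv]
  exact Real.smoothTransition.pos_of_pos (div_pos (sub_pos.2 hu) hT)

theorem gr_pos {T : ℝ} (hT : 0 < T) {u : ℝ} (hu : T < u) : 0 < gr T u := by
  have := gr_strictMonoOn hT (show T ∈ Ici T by simp) (show u ∈ Ici T from hu.le) hu
  rwa [gr_of_le hT le_rfl] at this

/-- super-level sets of `φ_T ∘ u`: for `T < t`, `{φ_T(t) ≤ φ_T(u)} = {t ≤ u}` -/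
theorem gr_le_gr_iff {T : ℝ} (hT : 0 < T) {t u : ℝ} (ht : T < t) : gr T t ≤ gr T u ↔ t ≤ u := by
  constructor
  · intro h
    by_contra hcon
    push Not at hcon
    rcases le_or_gt u T with h1 | h1
    · rw [gr_of_le hT h1] at h
      exact absurd (gr_pos hT ht) (by linarith)
    · have := gr_strictMonoOn hT (show u ∈ Ici T from h1.le) (show t ∈ Ici T from ht.le) hcon
      linarith
  · intro h
    exact gr_mono hT h

theorem gr_le {T : ℝ} (hT : 0 < T) {u : ℝ} (hu : T ≤ u) : gr T u ≤ u - T := by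
  have h1 := ramp_le (u := (u - T) / T) (div_nonneg (by linarith) hT.le)
  calc gr T u ≤ T * ((u - T) / T) := mul_le_mul_of_nonneg_left h1 hT.le
    _ = u - T := by field_simp

theorem le_gr {T : ℝ} (hT : 0 < T) (u : ℝ) : u - 2 * T ≤ gr T u := by
  have h1 := le_ramp ((u - T) / T)
  calc u - 2 * T = T * ((u - T) / T - 1) := by field_simp; ring
    _ ≤ gr T u := mul_le_mul_of_nonneg_left h1 hT.le

/-- every positive level `s` of `φ_T` is attained at some `t > T` -/
theorem gr_surj {T : ℝ} (hT : 0 < T) {s : ℝ} (hs : 0 < s) : ∃ t, T < t ∧ gr T t = s := by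
  have h1 : s ∈ Icc (gr T T) (gr T (s + 2 * T)) := by
    rw [gr_of_le hT le_rfl]
    exact ⟨hs.le, by have := le_gr hT (s + 2 * T); linarith⟩
  obtain ⟨t, ht, hts⟩ := intermediate_value_Icc (show T ≤ s + 2 * T by linarith)
    (gr_continuous T).continuousOn h1
  refine ⟨t, ?_, hts⟩
  rcases ht.1.eq_or_lt with h2 | h2
  · rw [← h2, gr_of_le hT le_rfl] at hts
    linarith
  · exact h2

theorem gr_abs {T : ℝ} (hT : 0 < T) (u : ℝ) : gr T |u| = gr T u + gr T (-u) := by
  rcases le_total 0 u with h | h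
  · rw [abs_of_nonneg h, gr_of_le hT (show -u ≤ T by linarith), add_zero]
  · rw [abs_of_nonpos h, gr_of_le hT (show u ≤ T by linarith), zero_add]

/-- `h = φ_T(|f|)` is smooth -/
theorem h_contDiff {T : ℝ} (hT : 0 < T) {f : EuclideanSpace ℝ (Fin n) → ℝ}
    (hf : ContDiff ℝ ∞ f) : ContDiff ℝ ∞ fun x => gr T |f x| := by
  have e : (fun x => gr T |f x|) = fun x => gr T (f x) + gr T (-f x) := by
    funext x
    exact gr_abs hT _
  rw [e]
  exact ((gr_contDiff T).comp hf).add ((gr_contDiff T).comp hf.neg)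

theorem h_compact {T : ℝ} (hT : 0 < T) {f : EuclideanSpace ℝ (Fin n) → ℝ}
    (hc : HasCompactSupport f) : HasCompactSupport fun x => gr T |f x| :=
  hc.comp_left (g := fun u => gr T |u|) (by
    show gr T |0| = 0
    rw [abs_zero]
    exact gr_of_le hT hT.le)

theorem gr_comp {T : ℝ} (hT : 0 < T) {u : EuclideanSpace ℝ (Fin n) → ℝ}
    {u' : EuclideanSpace ℝ (Fin n) →L[ℝ] ℝ} {x : EuclideanSpace ℝ (Fin n)}
    (hu : HasFDerivAt u u' x) :
    HasFDerivAt (fun x => gr T (u x)) (Real.smoothTransition ((u x - T) / T) • u') x :=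
  (gr_hasDeriv hT (u x)).comp_hasFDerivAt x hu

theorem h_grad {T : ℝ} (hT : 0 < T) {f : EuclideanSpace ℝ (Fin n) → ℝ}
    (hf : ContDiff ℝ ∞ f) (x : EuclideanSpace ℝ (Fin n)) :
    ‖gradient (fun x => gr T |f x|) x‖ ≤ ‖gradient f x‖ := by
  have hng : ∀ (u : EuclideanSpace ℝ (Fin n) → ℝ) x, ‖gradient u x‖ = ‖fderiv ℝ u x‖ := by
    intro u x
    rw [gradient, LinearIsometryEquiv.norm_map]
  have e : (fun x => gr T |f x|) = fun x => gr T (f x) + gr T (-f x) := by
    funext x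
    exact gr_abs hT _
  have h1 : HasFDerivAt f (fderiv ℝ f x) x :=
    (hf.differentiable (by simp)).differentiableAt.hasFDerivAt
  have h2 : HasFDerivAt (fun x => gr T (f x))
      (Real.smoothTransition ((f x - T) / T) • fderiv ℝ f x) x :=
    (gr_hasDeriv hT (f x)).comp_hasFDerivAt x h1
  have h1n : HasFDerivAt (fun x => -f x) (-fderiv ℝ f x) x := h1.fun_neg
  have h3 : HasFDerivAt (fun x => gr T (-f x))
      (Real.smoothTransition ((-f x - T) / T) • (-fderiv ℝ f x)) x :=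
    gr_comp hT h1n
  rw [hng, hng, e, (h2.fun_add h3).fderiv]
  have e2 : Real.smoothTransition ((f x - T) / T) • fderiv ℝ f x +
      Real.smoothTransition ((-f x - T) / T) • (-fderiv ℝ f x) =
      (Real.smoothTransition ((f x - T) / T) - Real.smoothTransition ((-f x - T) / T)) •
        fderiv ℝ f x := by
    rw [smul_neg, sub_smul]
    exact (sub_eq_add_neg _ _).symm
  rw [e2, norm_smul, Real.norm_eq_abs]
  apply mul_le_of_le_one_left (norm_nonneg _)
  have a1 := Real.smoothTransition.nonneg ((f x - T) / T)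
  have a2 := Real.smoothTransition.nonneg ((-f x - T) / T)
  have a3 := Real.smoothTransition.le_one ((f x - T) / T)
  have a4 := Real.smoothTransition.le_one ((-f x - T) / T)
  rw [abs_le]
  constructor <;> linarith

theorem h_up {T : ℝ} (hT : 0 < T) (u : ℝ) : gr T |u| ≤ max (|u| - T) 0 := by
  rcases le_total |u| T with h1 | h1
  · rw [gr_of_le hT h1]
    exact le_max_right _ _
  · exact (gr_le hT h1).trans (le_max_left _ _)

/-- **Truncation.**  `N = |f|_2`, `T ≥ 2 N`, `h = φ_T(|f|)`: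
`Ent(f²) ≤ 4 Ent(h²) + 2 P (13 + 9 log (T/N)) ∫ |∇f|²`. -/
theorem ent_trunc {μ : Measure (EuclideanSpace ℝ (Fin n))} [IsProbabilityMeasure μ] {P : ℝ}
    {f : EuclideanSpace ℝ (Fin n) → ℝ} (hf : ContDiff ℝ ∞ f) (hc : HasCompactSupport f)
    (hPf : (∫ x, f x ^ 2 ∂μ) - (∫ x, f x ∂μ) ^ 2 ≤ P * ∫ x, ‖gradient f x‖ ^ 2 ∂μ)
    {N T : ℝ} (hN : 0 < N) (hN2 : ∫ x, f x ^ 2 ∂μ = N ^ 2) (hT : 2 * N ≤ T) :
    Entropy μ (fun x => f x ^ 2) ≤
      4 * Entropy μ (fun x => gr T |f x| ^ 2) +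
        2 * P * (13 + 9 * Real.log (T / N)) * ∫ x, ‖gradient f x‖ ^ 2 ∂μ := by
  have hT0 : 0 < T := by linarith
  have hcf : Continuous f := hf.continuous
  set I : ℝ := ∫ x, ‖gradient f x‖ ^ 2 ∂μ with hI
  set h : EuclideanSpace ℝ (Fin n) → ℝ := fun x => gr T |f x| with hh
  have hgc : Continuous (fun u : ℝ => gr T |u|) := (gr_continuous T).comp continuous_abs
  have hgnn : ∀ x, 0 ≤ h x := fun x => gr_nonneg hT0 _
  have hup : ∀ x, h x ≤ max (|f x| - T) 0 := fun x => h_up hT0 _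
  have hlow : ∀ x, |f x| - 2 * T ≤ h x := fun x => le_gr hT0 _
  -- integrability
  obtain ⟨B, hB⟩ := hc.exists_bound_of_continuous hcf
  have hint : ∀ φ : ℝ → ℝ, Continuous φ → Integrable (fun x => φ (f x)) μ := by
    intro φ hφ
    obtain ⟨E, hE⟩ := (isCompact_Icc (a := -B) (b := B)).exists_bound_of_continuousOn
      (f := φ) hφ.continuousOn
    refine Integrable.of_bound (hφ.comp hcf).aestronglyMeasurable E (ae_of_all _ fun x => ?_)
    exact hE _ (abs_le.1 (by simpa using hB x))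
  have i1 : Integrable (fun x => f x ^ 2 * Real.log (f x ^ 2)) μ :=
    hint (fun u => u ^ 2 * Real.log (u ^ 2)) (Real.continuous_mul_log.comp (continuous_pow 2))
  have i2 : Integrable (fun x => f x ^ 2) μ := hint (fun u => u ^ 2) (by fun_prop)
  have i3 : Integrable (fun x => |f x|) μ := hint (fun u => |u|) (by fun_prop)
  have i4 : Integrable (fun x => h x ^ 2 * Real.log (h x ^ 2)) μ :=
    hint (fun u => gr T |u| ^ 2 * Real.log (gr T |u| ^ 2))
      (Real.continuous_mul_log.comp (hgc.pow 2))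
  have i5 : Integrable (fun x => h x ^ 2) μ := hint (fun u => gr T |u| ^ 2) (hgc.pow 2)
  set m : ℝ := ∫ x, |f x| ∂μ with hm
  set q : ℝ := ∫ x, h x ^ 2 ∂μ with hq
  have hm0 : 0 ≤ m := integral_nonneg fun x => abs_nonneg _
  have hq0 : 0 ≤ q := integral_nonneg fun x => sq_nonneg _
  have hqN : q ≤ N ^ 2 := by
    rw [← hN2]
    refine integral_mono i5 i2 fun x => ?_
    have h1 : h x ≤ |f x| := (hup x).trans (max_le (by linarith) (abs_nonneg _))
    show h x ^ 2 ≤ f x ^ 2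
    rw [← sq_abs (f x)]
    exact pow_le_pow_left₀ (hgnn _) h1 2
  have hsq : ∀ c : ℝ, ∫ x, (|f x| - c) ^ 2 ∂μ = N ^ 2 - 2 * c * m + c ^ 2 := by
    intro c
    have e : (fun x => (|f x| - c) ^ 2) = fun x => f x ^ 2 - 2 * c * |f x| + c ^ 2 := by
      funext x
      rw [sub_sq, sq_abs]
      ring
    have j1 : Integrable (fun x => 2 * c * |f x|) μ := i3.const_mul (2 * c)
    have j2 : Integrable (fun x => f x ^ 2 - 2 * c * |f x|) μ := i2.sub j1
    rw [e, integral_add j2 (integrable_const _), integral_sub i2 j1, integral_const_mul, hN2]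
    simp [hm]
  have hmN : m ≤ N := by
    have h1 : 0 ≤ ∫ x, (|f x| - m) ^ 2 ∂μ := integral_nonneg fun x => sq_nonneg _
    rw [hsq m] at h1
    nlinarith
  have hmf : (∫ x, f x ∂μ) ^ 2 ≤ m ^ 2 := by
    rw [← sq_abs (∫ x, f x ∂μ)]
    exact pow_le_pow_left₀ (abs_nonneg _) abs_integral_le_integral_abs 2
  have hvar : ∫ x, (|f x| - N) ^ 2 ∂μ ≤ 2 * (P * I) := by
    rw [hsq N]
    rw [hN2] at hPf
    nlinarith
  have hlR : 0 ≤ Real.log (T / N) := Real.log_nonneg (by rw [le_div_iff₀ hN]; linarith)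
  -- the pointwise inequality
  have hpw : ∀ x, f x ^ 2 * Real.log (f x ^ 2) - f x ^ 2 * Real.log (N ^ 2) - f x ^ 2 + N ^ 2 ≤
      4 * (h x ^ 2 * Real.log (h x ^ 2) - h x ^ 2 * Real.log (N ^ 2)) +
        (13 + 9 * Real.log (T / N)) * (|f x| - N) ^ 2 := by
    intro x
    have h1 := pointwise (v := |f x| / N) (d := h x / N) (R := T / N) (by positivity)
      (by rw [le_div_iff₀ hN]; linarith) (div_nonneg (hgnn _) hN.le)
      (by
        have h2 := hup x
        rcases le_total (|f x| - T) 0 with h3 | h3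
        · rw [max_eq_right h3] at h2
          exact (div_nonpos_of_nonpos_of_nonneg h2 hN.le).trans (le_max_right _ _)
        · rw [max_eq_left h3] at h2
          refine le_trans ?_ (le_max_left _ _)
          rw [← sub_div]
          gcongr)
      (by
        have h2 := hlow x
        rw [← mul_div_assoc, ← sub_div]
        gcongr)
    have h2 := mul_le_mul_of_nonneg_left h1 (sq_nonneg N)
    have e1 := sq_log_div (u := |f x|) hN
    have e2 := sq_log_div (u := h x) hN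
    rw [sq_abs] at e1
    have e3 : N ^ 2 * (|f x| / N) ^ 2 = f x ^ 2 := by
      rw [div_pow, sq_abs]
      field_simp
    have e4 : N ^ 2 * (|f x| / N - 1) ^ 2 = (|f x| - N) ^ 2 := by
      field_simp
    calc f x ^ 2 * Real.log (f x ^ 2) - f x ^ 2 * Real.log (N ^ 2) - f x ^ 2 + N ^ 2
        = N ^ 2 * ((|f x| / N) ^ 2 * Real.log ((|f x| / N) ^ 2) - (|f x| / N) ^ 2 + 1) := by
          rw [mul_add, mul_sub, e1, e3]
          ring
      _ ≤ _ := h2
      _ = 4 * (N ^ 2 * ((h x / N) ^ 2 * Real.log ((h x / N) ^ 2))) +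
          (13 + 9 * Real.log (T / N)) * (N ^ 2 * (|f x| / N - 1) ^ 2) := by ring
      _ = _ := by rw [e2, e4]
  have hJ1 : Integrable (fun x => f x ^ 2 * Real.log (f x ^ 2) - f x ^ 2 * Real.log (N ^ 2)) μ :=
    i1.sub (i2.mul_const _)
  have hJ2 : Integrable (fun x =>
      f x ^ 2 * Real.log (f x ^ 2) - f x ^ 2 * Real.log (N ^ 2) - f x ^ 2) μ := hJ1.sub i2
  have hJ3 : Integrable (fun x =>
      h x ^ 2 * Real.log (h x ^ 2) - h x ^ 2 * Real.log (N ^ 2)) μ := i4.sub (i5.mul_const _)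
  have hJ4 : Integrable (fun x => (|f x| - N) ^ 2) μ :=
    hint (fun u => (|u| - N) ^ 2) (by fun_prop)
  have hmono := integral_mono (hJ2.add (integrable_const (N ^ 2)))
    ((hJ3.const_mul 4).add (hJ4.const_mul (13 + 9 * Real.log (T / N)))) hpw
  have hl : ∫ x, (f x ^ 2 * Real.log (f x ^ 2) - f x ^ 2 * Real.log (N ^ 2) - f x ^ 2 + N ^ 2) ∂μ =
      (∫ x, f x ^ 2 * Real.log (f x ^ 2) ∂μ) - N ^ 2 * Real.log (N ^ 2) := by
    rw [integral_add hJ2 (integrable_const _), integral_sub hJ1 i2,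
      integral_sub i1 (i2.mul_const _), integral_mul_const, hN2]
    simp
  have hr : ∫ x, (4 * (h x ^ 2 * Real.log (h x ^ 2) - h x ^ 2 * Real.log (N ^ 2)) +
        (13 + 9 * Real.log (T / N)) * (|f x| - N) ^ 2) ∂μ =
      4 * ((∫ x, h x ^ 2 * Real.log (h x ^ 2) ∂μ) - q * Real.log (N ^ 2)) +
        (13 + 9 * Real.log (T / N)) * ∫ x, (|f x| - N) ^ 2 ∂μ := by
    rw [integral_add (hJ3.const_mul 4) (hJ4.const_mul _), integral_const_mul, integral_const_mul,
      integral_sub i4 (i5.mul_const _), integral_mul_const]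
  have hmono' : (∫ x, f x ^ 2 * Real.log (f x ^ 2) ∂μ) - N ^ 2 * Real.log (N ^ 2) ≤
      4 * ((∫ x, h x ^ 2 * Real.log (h x ^ 2) ∂μ) - q * Real.log (N ^ 2)) +
        (13 + 9 * Real.log (T / N)) * ∫ x, (|f x| - N) ^ 2 ∂μ := by
    rw [← hl, ← hr]
    exact hmono
  have hqlog : q * Real.log q ≤ q * Real.log (N ^ 2) := by
    rcases hq0.eq_or_lt with h1 | h1
    · rw [← h1]
      simp
    · exact mul_le_mul_of_nonneg_left (Real.log_le_log h1 hqN) hq0
  show (∫ x, f x ^ 2 * Real.log (f x ^ 2) ∂μ) - (∫ x, f x ^ 2 ∂μ) * Real.log (∫ x, f x ^ 2 ∂μ) ≤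
    4 * ((∫ x, h x ^ 2 * Real.log (h x ^ 2) ∂μ) - q * Real.log q) + _
  rw [hN2]
  have hlast : (13 + 9 * Real.log (T / N)) * ∫ x, (|f x| - N) ^ 2 ∂μ ≤
      (13 + 9 * Real.log (T / N)) * (2 * (P * I)) := by
    gcongr
  calc (∫ x, f x ^ 2 * Real.log (f x ^ 2) ∂μ) - N ^ 2 * Real.log (N ^ 2)
      ≤ 4 * ((∫ x, h x ^ 2 * Real.log (h x ^ 2) ∂μ) - q * Real.log q) +
        (13 + 9 * Real.log (T / N)) * (2 * (P * I)) := by linarith
    _ = 4 * ((∫ x, h x ^ 2 * Real.log (h x ^ 2) ∂μ) - q * Real.log q) +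
        2 * P * (13 + 9 * Real.log (T / N)) * I := by ring

/-- General form: a log-Sobolev inequality for the truncations `φ_{T'}(|f|)`, `T' ≥ T`, gives one
for `f` with the factor `1 + log(1 + T²/∫f²)`. -/
theorem of_trunc {μ : Measure (EuclideanSpace ℝ (Fin n))} [IsProbabilityMeasure μ] {D P : ℝ}
    (hD : 0 ≤ D) (hP : 0 ≤ P)
    {f : EuclideanSpace ℝ (Fin n) → ℝ} (hf : ContDiff ℝ ∞ f) (hc : HasCompactSupport f)
    (hPf : (∫ x, f x ^ 2 ∂μ) - (∫ x, f x ∂μ) ^ 2 ≤ P * ∫ x, ‖gradient f x‖ ^ 2 ∂μ) {T : ℝ}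
    (hQC : ∀ T' : ℝ, 0 < T' → T ≤ T' → 4 * ∫ x, f x ^ 2 ∂μ ≤ T' ^ 2 →
      Entropy μ (fun x => gr T' |f x| ^ 2) ≤
        D * ∫ x, ‖gradient (fun x => gr T' |f x|) x‖ ^ 2 ∂μ) :
    Entropy μ (fun x => f x ^ 2) ≤
      (4 * D + 40 * P) * (1 + Real.log (1 + T ^ 2 / ∫ x, f x ^ 2 ∂μ)) *
        ∫ x, ‖gradient f x‖ ^ 2 ∂μ := by
  have hI0 : 0 ≤ ∫ x, ‖gradient f x‖ ^ 2 ∂μ := integral_nonneg fun x => by positivity
  have hm0 : 0 ≤ ∫ x, f x ^ 2 ∂μ := integral_nonneg fun x => sq_nonneg _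
  have hl0 : 0 ≤ Real.log (1 + T ^ 2 / ∫ x, f x ^ 2 ∂μ) :=
    Real.log_nonneg (by linarith [div_nonneg (sq_nonneg T) hm0])
  have hcf : Continuous f := hf.continuous
  obtain ⟨B, hB⟩ := hc.exists_bound_of_continuous hcf
  have i2 : Integrable (fun x => f x ^ 2) μ := by
    refine Integrable.of_bound (hcf.pow 2).aestronglyMeasurable (B ^ 2) (ae_of_all _ fun x => ?_)
    rw [norm_pow]
    exact pow_le_pow_left₀ (norm_nonneg _) (hB x) 2
  rcases hm0.eq_or_lt with h0 | h0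
  · have hz : (fun x => f x ^ 2) =ᵐ[μ] 0 :=
      (integral_eq_zero_iff_of_nonneg (fun x => sq_nonneg (f x)) i2).1 h0.symm
    have h1 : ∫ x, f x ^ 2 * Real.log (f x ^ 2) ∂μ = 0 := by
      rw [integral_congr_ae (g := fun _ => (0 : ℝ))]
      · simp
      · filter_upwards [hz] with x hx
        simp only [Pi.zero_apply] at hx
        rw [hx, zero_mul]
    show (∫ x, f x ^ 2 * Real.log (f x ^ 2) ∂μ) -
      (∫ x, f x ^ 2 ∂μ) * Real.log (∫ x, f x ^ 2 ∂μ) ≤ _
    rw [h1, ← h0]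
    simp only [zero_mul, sub_zero, div_zero, add_zero, Real.log_one, mul_one]
    positivity
  set N : ℝ := √(∫ x, f x ^ 2 ∂μ) with hN
  have hNpos : 0 < N := Real.sqrt_pos.2 h0
  have hN2 : ∫ x, f x ^ 2 ∂μ = N ^ 2 := (Real.sq_sqrt hm0).symm
  set T' : ℝ := max T (2 * N) with hT'
  have hT'2 : 2 * N ≤ T' := le_max_right _ _
  have hTT' : T ≤ T' := le_max_left _ _
  have hT'0 : 0 < T' := by linarith
  have hlog : Real.log (T' / N) ≤ 0.7 + Real.log (1 + T ^ 2 / N ^ 2) / 2 := by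
    have h1 : (T' / N) ^ 2 ≤ 2 ^ 2 * (1 + T ^ 2 / N ^ 2) := by
      have h2 : T' ^ 2 ≤ 4 * (N ^ 2 + T ^ 2) := by
        rcases le_total T (2 * N) with h3 | h3
        · rw [hT', max_eq_right h3]
          nlinarith [sq_nonneg T]
        · rw [hT', max_eq_left h3]
          nlinarith [sq_nonneg T, sq_nonneg N]
      rw [div_pow, div_le_iff₀ (by positivity)]
      have h4 : 2 ^ 2 * (1 + T ^ 2 / N ^ 2) * N ^ 2 = 4 * (N ^ 2 + T ^ 2) := by
        field_simp
        ring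
      rw [h4]
      exact h2
    have h5 : 2 * Real.log (T' / N) ≤ 2 * Real.log 2 + Real.log (1 + T ^ 2 / N ^ 2) := by
      have h6 : Real.log ((T' / N) ^ 2) ≤ Real.log (2 ^ 2 * (1 + T ^ 2 / N ^ 2)) :=
        Real.log_le_log (by positivity) h1
      rw [Real.log_mul (by norm_num) (by positivity), Real.log_pow, Real.log_pow] at h6
      push_cast at h6
      exact h6
    linarith [Real.log_two_lt_d9]
  -- integrability of the gradient
  have hng : ∀ (u : EuclideanSpace ℝ (Fin n) → ℝ) x, ‖gradient u x‖ = ‖fderiv ℝ u x‖ := by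
    intro u x
    rw [gradient, LinearIsometryEquiv.norm_map]
  obtain ⟨L, hL⟩ := (hc.fderiv ℝ).exists_bound_of_continuous (hf.continuous_fderiv (by simp))
  have hfi : Integrable (fun x => ‖gradient f x‖ ^ 2) μ := by
    refine Integrable.of_bound (C := L ^ 2) ?_ (ae_of_all _ fun x => ?_)
    · simp_rw [hng]
      exact ((hf.continuous_fderiv (by simp)).norm.pow 2).aestronglyMeasurable
    · rw [Real.norm_eq_abs, abs_of_nonneg (by positivity), hng]
      exact pow_le_pow_left₀ (norm_nonneg _) (hL x) 2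
  have hhI : ∫ x, ‖gradient (fun x => gr T' |f x|) x‖ ^ 2 ∂μ ≤
      ∫ x, ‖gradient f x‖ ^ 2 ∂μ := by
    refine integral_mono_of_nonneg (ae_of_all _ fun x => by positivity) hfi
      (ae_of_all _ fun x => ?_)
    exact pow_le_pow_left₀ (norm_nonneg _) (h_grad hT'0 hf x) 2
  have h1 := hQC T' hT'0 hTT' (by rw [hN2]; nlinarith)
  have h2 := ent_trunc hf hc hPf hNpos hN2 hT'2
  have h3 := mul_le_mul_of_nonneg_left hhI hD
  refine (show Entropy μ (fun x => f x ^ 2) ≤
      (4 * D + 2 * P * (13 + 9 * Real.log (T' / N))) * ∫ x, ‖gradient f x‖ ^ 2 ∂μ by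
    linarith).trans (mul_le_mul_of_nonneg_right ?_ hI0)
  rw [hN2] at hl0 ⊢
  nlinarith [mul_nonneg hP hl0, mul_nonneg hD hl0, mul_le_mul_of_nonneg_left hlog hP]

end Vale.Agent.P245.H68
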